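import Mathlib
import Vale.Agent.Lib.P062.Game
import Vale.Agent.Lib.P062.Strip

/-!
# P062: Breaker wins the Snaky achievement game on the infinite strip of five rows

On the board `ℤ × {0, 1, 2, 3, 4}` Breaker has a (pairing) strategy such that Maker never owns
an allowed copy of Snaky.
-/

namespace Vale.Agent.Results.P062.StripFive

open Vale.Agent.Lib.P062

theorem result :
    ∃ τ : List Cell → Cell,
      BreakerWinningStrategy {c : Cell | 0 ≤ c.2 ∧ c.2 ≤ 4} {P : Finset Cell | IsSnakyCopy P} τ :=
  ⟨pairStrategy partner5 fresh5,
    pairing_wins strip5 {P : Finset Cell | IsSnakyCopy P} partner5 fresh5 partner5_invol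
      partner5_board fresh5_spec (fun P hP hin => cover5 P hP hin)⟩

end Vale.Agent.Results.P062.StripFive
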