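import Mathlib
import Vale.Agent.Lib.P062.Game
import Vale.Agent.Lib.P062.Strip

/-!
# P062: a pairing for Snaky on the strip of five rows, and Breaker's win on every infinite
board inside that strip

(1) The strip `ℤ × {0, 1, 2, 3, 4}` carries a pairing in the sense of the problem: an involution
`p` of the cells that maps the strip to itself such that every allowed copy of Snaky lying in the
strip contains two distinct cells `c`, `p c`.
(2) On every infinite board contained in the strip Breaker has a winning strategy.
(3) In particular Breaker has a winning strategy on the strip itself.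
-/

namespace Vale.Agent.Results.P062.StripFivePairing

open Vale.Agent.Lib.P062

/-- Restriction of the pairing of the strip to a board `B`: a cell keeps its partner only if both
lie in `B`. -/
noncomputable def restr (B : Set Cell) (c : Cell) : Cell :=
  open Classical in if c ∈ B ∧ partner5 c ∈ B then partner5 c else c

theorem restr_invol (B : Set Cell) (c : Cell) : restr B (restr B c) = c := by
  classical
  by_cases h : c ∈ B ∧ partner5 c ∈ B
  · have h1 : restr B c = partner5 c := by simp [restr, h]
    have h2 : partner5 c ∈ B ∧ partner5 (partner5 c) ∈ B := by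
      rw [partner5_invol]; exact ⟨h.2, h.1⟩
    rw [h1]
    simp only [restr, h2, and_self, if_true]
    exact partner5_invol c
  · have h1 : restr B c = c := by simp only [restr, h, if_false]
    rw [h1, h1]

theorem restr_board (B : Set Cell) (c : Cell) (hc : c ∈ B) : restr B c ∈ B := by
  classical
  by_cases h : c ∈ B ∧ partner5 c ∈ B
  · have h1 : restr B c = partner5 c := by simp [restr, h]
    rw [h1]; exact h.2
  · have h1 : restr B c = c := by simp only [restr, h, if_false]
    rw [h1]; exact hc

/-- Breaker wins on every infinite board inside the strip of five rows. -/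
theorem sub_board (B : Set Cell) (hB : B.Infinite)
    (hsub : ∀ c ∈ B, 0 ≤ c.2 ∧ c.2 ≤ 4) :
    ∃ τ : List Cell → Cell,
      BreakerWinningStrategy B {P : Finset Cell | IsSnakyCopy P} τ := by
  classical
  have hex : ∀ l : List Cell, ∃ c, c ∈ B ∧ c ∉ l := by
    intro l
    obtain ⟨c, hc, hcl⟩ := hB.exists_notMem_finset l.toFinset
    exact ⟨c, hc, fun h => hcl (List.mem_toFinset.mpr h)⟩
  choose fresh hfresh using hex
  refine ⟨pairStrategy (restr B) fresh,
    pairing_wins B {P : Finset Cell | IsSnakyCopy P} (restr B) fresh (restr_invol B)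
      (restr_board B) hfresh ?_⟩
  intro P hP hin
  obtain ⟨c, hc, hne, hmem⟩ := cover5 P hP (fun c hc => hsub c (hin c hc))
  have h : c ∈ B ∧ partner5 c ∈ B := ⟨hin c hc, hin _ hmem⟩
  have h1 : restr B c = partner5 c := by simp [restr, h]
  exact ⟨c, hc, by rw [h1]; exact hne, by rw [h1]; exact hmem⟩

theorem result :
    (∃ p : Cell → Cell,
      (∀ c, p (p c) = c) ∧
      (∀ c : Cell, 0 ≤ c.2 ∧ c.2 ≤ 4 → 0 ≤ (p c).2 ∧ (p c).2 ≤ 4) ∧
      ∀ P : Finset Cell, IsSnakyCopy P → (∀ c ∈ P, 0 ≤ c.2 ∧ c.2 ≤ 4) →
        ∃ c ∈ P, p c ≠ c ∧ p c ∈ P) ∧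
    (∀ B : Set Cell, B.Infinite → (∀ c ∈ B, 0 ≤ c.2 ∧ c.2 ≤ 4) →
      ∃ τ : List Cell → Cell,
        BreakerWinningStrategy B {P : Finset Cell | IsSnakyCopy P} τ) ∧
    (∃ τ : List Cell → Cell,
      BreakerWinningStrategy {c : Cell | 0 ≤ c.2 ∧ c.2 ≤ 4} {P : Finset Cell | IsSnakyCopy P} τ) :=
  ⟨⟨partner5, partner5_invol, fun c hc => partner5_board c hc,
      fun P hP hin => cover5 P hP hin⟩,
    sub_board,
    ⟨pairStrategy partner5 fresh5,
      pairing_wins strip5 {P : Finset Cell | IsSnakyCopy P} partner5 fresh5 partner5_invol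
        partner5_board fresh5_spec (fun P hP hin => cover5 P hP hin)⟩⟩

end Vale.Agent.Results.P062.StripFivePairing
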