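import Mathlib
import Vale.Agent.Lib.P062.Game
import Vale.Agent.Lib.P062.Strip

/-!
# P062: Breaker wins the Snaky achievement game on every board inside five rows

On every board `B` contained in the strip `ℤ × {0, 1, 2, 3, 4}`, finite or infinite, Breaker has
a strategy such that Maker never owns an allowed copy of Snaky; in particular on every `5 × N`
board. On a finite board a reply of Breaker is only asked for while an unclaimed cell is left.
-/

namespace Vale.Agent.Results.P062.StripFiveSubBoards

open Vale.Agent.Lib.P062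

/-- `τ` is a winning strategy for Breaker on the board `board` (finite or infinite) against the
family `wins` of winning sets. A strategy maps the chronological list of Maker's moves so far to
Breaker's reply (so Breaker's `i`-th claim is `τ [m 0, …, m i]`). The condition says: whenever
Maker's moves `m 0, …, m k` are legal (each lies in the board and was claimed by nobody before),
Maker does not own all cells of any winning set, and if some cell of the board is still
unclaimed after the move `m k`, then Breaker's reply to `m k` is legal (it lies in the board and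
was claimed by nobody before). -/
def BreakerWinsOn (board : Set Cell) (wins : Set (Finset Cell))
    (τ : List Cell → Cell) : Prop :=
  ∀ (m : ℕ → Cell) (k : ℕ),
    (∀ i ≤ k, m i ∈ board ∧ (∀ j < i, m i ≠ m j) ∧
      (∀ j < i, m i ≠ τ (firstMoves m (j + 1)))) →
    (∀ P ∈ wins, ¬ (∀ c ∈ P, ∃ i ≤ k, m i = c)) ∧
    ((∃ c ∈ board, (∀ i ≤ k, c ≠ m i) ∧ (∀ j < k, c ≠ τ (firstMoves m (j + 1)))) →
      (τ (firstMoves m (k + 1)) ∈ board ∧
        (∀ j ≤ k, τ (firstMoves m (k + 1)) ≠ m j) ∧
        (∀ j < k, τ (firstMoves m (k + 1)) ≠ τ (firstMoves m (j + 1)))))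

/-- A pairing gives a winning strategy for Breaker on an arbitrary board; `fresh` only has to
produce an unclaimed cell of the board when there is one. -/
theorem pairing_wins_on (board : Set Cell) (wins : Set (Finset Cell))
    (p : Cell → Cell) (fresh : List Cell → Cell)
    (hinv : ∀ c, p (p c) = c) (hboard : ∀ c ∈ board, p c ∈ board)
    (hfresh : ∀ l, (∃ c, c ∈ board ∧ c ∉ l) → fresh l ∈ board ∧ fresh l ∉ l)
    (hcover : ∀ P ∈ wins, (∀ c ∈ P, c ∈ board) → ∃ c ∈ P, p c ≠ c ∧ p c ∈ P) :
    BreakerWinsOn board wins (pairStrategy p fresh) := by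
  intro m k hlegal
  obtain ⟨k1, k2, k3⟩ := pair_key p fresh m k
  constructor
  · intro P hP hown
    have hPboard : ∀ c ∈ P, c ∈ board := by
      intro c hc
      obtain ⟨i, hi, h⟩ := hown c hc
      rw [← h]; exact (hlegal i hi).1
    obtain ⟨c, hc, hpc, hpcP⟩ := hcover P hP hPboard
    obtain ⟨a, ha, hca⟩ := hown c hc
    obtain ⟨b, hb, hcb⟩ := hown (p c) hpcP
    have key : ∀ lo hi, lo < hi → hi ≤ k → p (m lo) = m hi → p (m lo) ≠ m lo → False := by
      intro lo hi hlt hhi hp hne
      obtain ⟨_, K2, _⟩ := pair_key p fresh m lo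
      have hstrat := pairStrategy_succ p fresh m lo
      by_cases hmem : p (m lo) ∈ (pairRun p fresh (firstMoves m lo)).2
      · obtain ⟨j, hj, hj'⟩ := (K2 _).mp hmem
        exact (hlegal hi hhi).2.2 j (by omega) (hj'.trans hp).symm
      · have e : pairStrategy p fresh (firstMoves m (lo + 1)) = p (m lo) := by
          rw [hstrat, if_pos ⟨hne, hmem⟩]
        exact (hlegal hi hhi).2.2 lo hlt (e.trans hp).symm
    rcases Nat.lt_trichotomy a b with h | h | h
    · exact key a b h hb (by rw [hca, hcb]) (by rw [hca]; exact hpc)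
    · subst h
      exact hpc (by rw [← hcb, hca])
    · exact key b a h ha (by rw [hcb, hinv, hca])
        (by rw [hcb, hinv]; exact fun e => hpc e.symm)
  · rintro ⟨c, hcB, hcM, hcR⟩
    have hmk_board := (hlegal k (le_refl k)).1
    have hmk_newB := (hlegal k (le_refl k)).2.2
    have hmk2 : m k ∉ (pairRun p fresh (firstMoves m k)).2 := by
      rw [k2]; rintro ⟨i, hi, h⟩; exact hmk_newB i hi h.symm
    have hstrat := pairStrategy_succ p fresh m k
    by_cases hcase : p (m k) ≠ m k ∧ p (m k) ∉ (pairRun p fresh (firstMoves m k)).2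
    · rw [hstrat, if_pos hcase]
      have hnot1 : p (m k) ∉ (pairRun p fresh (firstMoves m k)).1 := by
        intro hin
        have := k3 (p (m k)) hin (by rw [hinv]; exact fun h => hcase.1 h.symm)
        rw [hinv] at this
        exact hmk2 this
      refine ⟨hboard _ hmk_board, ?_, ?_⟩
      · intro j hj hEq
        rcases Nat.lt_or_ge j k with h' | h'
        · exact hnot1 ((k1 _).mpr ⟨j, h', hEq.symm⟩)
        · have : j = k := by omega
          rw [this] at hEq
          exact hcase.1 hEq
      · intro j hj hEq
        exact hcase.2 ((k2 _).mpr ⟨j, hj, hEq.symm⟩)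
    · rw [hstrat, if_neg hcase]
      have hex : ∃ c, c ∈ board ∧ c ∉ (m k :: ((pairRun p fresh (firstMoves m k)).1
            ++ (pairRun p fresh (firstMoves m k)).2)) := by
        refine ⟨c, hcB, ?_⟩
        intro hmem
        simp only [List.mem_cons, List.mem_append] at hmem
        rcases hmem with h | h | h
        · exact hcM k (le_refl k) h
        · obtain ⟨i, hi, e⟩ := (k1 c).mp h
          exact hcM i (by omega) e.symm
        · obtain ⟨i, hi, e⟩ := (k2 c).mp h
          exact hcR i hi e.symm
      obtain ⟨hf1, hf2⟩ := hfresh _ hex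
      simp only [List.mem_cons, List.mem_append, not_or] at hf2
      refine ⟨hf1, ?_, ?_⟩
      · intro j hj hEq
        rcases Nat.lt_or_ge j k with h' | h'
        · exact hf2.2.1 ((k1 _).mpr ⟨j, h', hEq.symm⟩)
        · have : j = k := by omega
          rw [this] at hEq
          exact hf2.1 hEq
      · intro j hj hEq
        exact hf2.2.2 ((k2 _).mpr ⟨j, hj, hEq.symm⟩)

/-- Restriction of the pairing of the strip to a board `B`: a cell keeps its partner only if both
lie in `B`. -/
noncomputable def restr (B : Set Cell) (c : Cell) : Cell :=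
  open Classical in if c ∈ B ∧ partner5 c ∈ B then partner5 c else c

theorem restr_invol (B : Set Cell) (c : Cell) : restr B (restr B c) = c := by
  classical
  by_cases h : c ∈ B ∧ partner5 c ∈ B
  · have h1 : restr B c = partner5 c := by simp [restr, h]
    have h2 : partner5 c ∈ B ∧ partner5 (partner5 c) ∈ B := by
      rw [partner5_invol]; exact ⟨h.2, h.1⟩
    rw [h1]
    simp only [restr, h2, and_self, if_true]
    exact partner5_invol c
  · have h1 : restr B c = c := by simp only [restr, h, if_false]
    rw [h1, h1]

theorem restr_board (B : Set Cell) (c : Cell) (hc : c ∈ B) : restr B c ∈ B := by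
  classical
  by_cases h : c ∈ B ∧ partner5 c ∈ B
  · have h1 : restr B c = partner5 c := by simp [restr, h]
    rw [h1]; exact h.2
  · have h1 : restr B c = c := by simp only [restr, h, if_false]
    rw [h1]; exact hc

/-- An unclaimed cell of `B`, if there is one. -/
noncomputable def freshOf (B : Set Cell) (l : List Cell) : Cell :=
  open Classical in if h : ∃ c, c ∈ B ∧ c ∉ l then Classical.choose h else (0, 0)

theorem freshOf_spec (B : Set Cell) (l : List Cell) (h : ∃ c, c ∈ B ∧ c ∉ l) :
    freshOf B l ∈ B ∧ freshOf B l ∉ l := by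
  classical
  have e : freshOf B l = Classical.choose h := by simp only [freshOf, h, dif_pos]
  rw [e]
  exact Classical.choose_spec h

/-- Breaker wins on every board inside the strip of five rows. -/
theorem sub_board (B : Set Cell) (hsub : ∀ c ∈ B, 0 ≤ c.2 ∧ c.2 ≤ 4) :
    ∃ τ : List Cell → Cell, BreakerWinsOn B {P : Finset Cell | IsSnakyCopy P} τ := by
  classical
  refine ⟨pairStrategy (restr B) (freshOf B),
    pairing_wins_on B {P : Finset Cell | IsSnakyCopy P} (restr B) (freshOf B) (restr_invol B)
      (restr_board B) (freshOf_spec B) ?_⟩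
  intro P hP hin
  obtain ⟨c, hc, hne, hmem⟩ := cover5 P hP (fun c hc => hsub c (hin c hc))
  have h : c ∈ B ∧ partner5 c ∈ B := ⟨hin c hc, hin _ hmem⟩
  have h1 : restr B c = partner5 c := by simp [restr, h]
  exact ⟨c, hc, by rw [h1]; exact hne, by rw [h1]; exact hmem⟩

theorem result :
    (∀ B : Set Cell, (∀ c ∈ B, 0 ≤ c.2 ∧ c.2 ≤ 4) →
      ∃ τ : List Cell → Cell, BreakerWinsOn B {P : Finset Cell | IsSnakyCopy P} τ) ∧
    (∀ N : ℤ, ∃ τ : List Cell → Cell,
      BreakerWinsOn {c : Cell | 0 ≤ c.1 ∧ c.1 < N ∧ 0 ≤ c.2 ∧ c.2 ≤ 4}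
        {P : Finset Cell | IsSnakyCopy P} τ) :=
  ⟨sub_board, fun _ => sub_board _ (fun _ hc => ⟨hc.2.2.1, hc.2.2.2⟩)⟩

end Vale.Agent.Results.P062.StripFiveSubBoards
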