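import Mathlib
import Vale.Agent.Lib.P062.Game
import Vale.Agent.Lib.P062.Strip

/-!
# P062: on the whole plane Breaker can defend all strips of a tiling by five-row strips at once

Breaker has a strategy for the Snaky game on the board `ℤ × ℤ` such that Maker never owns an
allowed copy that lies inside one of the strips `ℤ × {5 i, …, 5 i + 4}`, `i ∈ ℤ`.
-/

namespace Vale.Agent.Results.P062.TiledPlane

open Vale.Agent.Lib.P062

/-- The pairing of the plane that repeats the pairing of the five-row strip in every strip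
`ℤ × {5 q, …, 5 q + 4}`. -/
def partnerAll (c : Cell) : Cell :=
  ((partner5 (c.1, c.2 - 5 * (c.2 / 5))).1,
    (partner5 (c.1, c.2 - 5 * (c.2 / 5))).2 + 5 * (c.2 / 5))

theorem partnerAll_invol (c : Cell) : partnerAll (partnerAll c) = c := by
  obtain ⟨x, y⟩ := c
  have hr : 0 ≤ y - 5 * (y / 5) ∧ y - 5 * (y / 5) ≤ 4 := by omega
  have hb : 0 ≤ (partner5 (x, y - 5 * (y / 5))).2 ∧ (partner5 (x, y - 5 * (y / 5))).2 ≤ 4 :=
    partner5_board (x, y - 5 * (y / 5)) hr
  have hq : ((partner5 (x, y - 5 * (y / 5))).2 + 5 * (y / 5)) / 5 = y / 5 := by omega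
  have hinv := partner5_invol (x, y - 5 * (y / 5))
  have e : (partner5 (x, y - 5 * (y / 5))).2 + 5 * (y / 5) - 5 * (y / 5)
      = (partner5 (x, y - 5 * (y / 5))).2 := by ring
  simp only [partnerAll]
  rw [hq, e, hinv]
  ext
  · rfl
  · show y - 5 * (y / 5) + 5 * (y / 5) = y
    ring

/-- Every allowed copy of Snaky inside a strip `ℤ × {5 i, …, 5 i + 4}` contains a pair. -/
theorem coverAll (P : Finset Cell) (hP : IsSnakyCopy P) (i : ℤ)
    (hin : ∀ c ∈ P, 5 * i ≤ c.2 ∧ c.2 ≤ 5 * i + 4) :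
    ∃ c ∈ P, partnerAll c ≠ c ∧ partnerAll c ∈ P := by
  obtain ⟨swap, a, b, t, ha, hb, rfl⟩ := hP
  have hcopy : IsSnakyCopy
      (snaky.map fun c => ((t.1, t.2 - 5 * i) : Cell) + signedPerm swap a b c).toFinset :=
    ⟨swap, a, b, (t.1, t.2 - 5 * i), ha, hb, rfl⟩
  have hmem' : ∀ c' : Cell,
      c' ∈ (snaky.map fun c => ((t.1, t.2 - 5 * i) : Cell) + signedPerm swap a b c).toFinset →
      ((c'.1, c'.2 + 5 * i) : Cell) ∈ (snaky.map fun c => t + signedPerm swap a b c).toFinset := by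
    intro c' hc'
    rw [List.mem_toFinset, List.mem_map] at hc'
    obtain ⟨s, hs, rfl⟩ := hc'
    rw [List.mem_toFinset, List.mem_map]
    refine ⟨s, hs, ?_⟩
    ext
    · simp
    · simp; ring
  have hin' : ∀ c' ∈ (snaky.map fun c => ((t.1, t.2 - 5 * i) : Cell)
      + signedPerm swap a b c).toFinset, c' ∈ strip5 := by
    intro c' hc'
    have h := hin _ (hmem' c' hc')
    have h1 : 5 * i ≤ c'.2 + 5 * i := h.1
    have h2 : c'.2 + 5 * i ≤ 5 * i + 4 := h.2
    exact ⟨by omega, by omega⟩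
  obtain ⟨c', hc', hne, hpc⟩ := cover5 _ hcopy hin'
  have hs : 0 ≤ c'.2 ∧ c'.2 ≤ 4 := hin' c' hc'
  have hq : (c'.2 + 5 * i) / 5 = i := by omega
  have e : c'.2 + 5 * i - 5 * i = c'.2 := by ring
  have key : partnerAll (c'.1, c'.2 + 5 * i) = ((partner5 c').1, (partner5 c').2 + 5 * i) := by
    simp only [partnerAll]
    rw [hq, e]
  refine ⟨(c'.1, c'.2 + 5 * i), hmem' c' hc', ?_, ?_⟩
  · rw [key]
    intro h
    apply hne
    obtain ⟨h1, h2⟩ := Prod.mk.inj h
    exact Prod.ext h1 (by omega)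
  · rw [key]
    exact hmem' _ hpc

theorem partnerAll_two (x y : ℤ) (h : x % 3 = 2) : partnerAll (x, y) = (x + 1, y) := by
  have e : partner5 (x, y - 5 * (y / 5)) = (x + 1, y - 5 * (y / 5)) := by
    simp [partner5, h]
  simp only [partnerAll]
  rw [e]
  ext
  · rfl
  · show y - 5 * (y / 5) + 5 * (y / 5) = y
    ring

/-- Four consecutive cells of a row contain a pair. -/
theorem cover_rowAll (P : Finset Cell) (X y : ℤ) (h0 : (X, y) ∈ P) (h1 : (X + 1, y) ∈ P)
    (h2 : (X + 2, y) ∈ P) (h3 : (X + 3, y) ∈ P) :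
    ∃ c ∈ P, partnerAll c ≠ c ∧ partnerAll c ∈ P := by
  have hx : X % 3 = 0 ∨ X % 3 = 1 ∨ X % 3 = 2 := by omega
  rcases hx with h | h | h
  · have e : (X + 2) % 3 = 2 := by omega
    have k : partnerAll (X + 2, y) = (X + 3, y) := by
      rw [partnerAll_two _ _ e]
      ext
      · show X + 2 + 1 = X + 3
        ring
      · rfl
    refine ⟨(X + 2, y), h2, ?_, ?_⟩
    · rw [k]
      intro hh
      have := (Prod.mk.inj hh).1
      omega
    · rw [k]; exact h3
  · have e : (X + 1) % 3 = 2 := by omega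
    have k : partnerAll (X + 1, y) = (X + 2, y) := by
      rw [partnerAll_two _ _ e]
      ext
      · show X + 1 + 1 = X + 2
        ring
      · rfl
    refine ⟨(X + 1, y), h1, ?_, ?_⟩
    · rw [k]
      intro hh
      have := (Prod.mk.inj hh).1
      omega
    · rw [k]; exact h2
  · have k : partnerAll (X, y) = (X + 1, y) := partnerAll_two _ _ h
    refine ⟨(X, y), h0, ?_, ?_⟩
    · rw [k]
      intro hh
      have := (Prod.mk.inj hh).1
      omega
    · rw [k]; exact h1

/-- Every allowed copy of Snaky lying in two consecutive rows contains a pair. -/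
theorem coverFlat (P : Finset Cell) (hP : IsSnakyCopy P) (y : ℤ)
    (hin : ∀ c ∈ P, y ≤ c.2 ∧ c.2 ≤ y + 1) :
    ∃ c ∈ P, partnerAll c ≠ c ∧ partnerAll c ∈ P := by
  obtain ⟨swap, a, b, ⟨tx, ty⟩, ha, hb, rfl⟩ := hP
  have hmem : ∀ s ∈ snaky, ((tx, ty) : Cell) + signedPerm swap a b s
      ∈ (snaky.map fun c => ((tx, ty) : Cell) + signedPerm swap a b c).toFinset := by
    intro s hs
    rw [List.mem_toFinset]
    exact List.mem_map.mpr ⟨s, hs, rfl⟩
  have m0 := hmem (0, 0) (by simp [snaky])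
  have m1 := hmem (1, 0) (by simp [snaky])
  have m2 := hmem (2, 0) (by simp [snaky])
  have m3 := hmem (3, 0) (by simp [snaky])
  cases swap with
  | false =>
    simp only [signedPerm, Bool.false_eq_true, if_false, Prod.mk_add_mk, mul_zero, add_zero,
      mul_one] at m0 m1 m2 m3
    rcases ha with rfl | rfl
    · simp only [one_mul] at m2 m3
      exact cover_rowAll _ tx ty m0 m1 m2 m3
    · refine cover_rowAll _ (tx - 3) ty ?_ ?_ ?_ ?_
      · have : tx - 3 = tx + -1 * 3 := by ring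
        rw [this]; exact m3
      · have : tx - 3 + 1 = tx + -1 * 2 := by ring
        rw [this]; exact m2
      · have : tx - 3 + 2 = tx + -1 := by ring
        rw [this]; exact m1
      · have : tx - 3 + 3 = tx := by ring
        rw [this]; exact m0
  | true =>
    exfalso
    have s0 := hin _ m0
    have s3 := hin _ m3
    simp only [signedPerm, if_true, Prod.mk_add_mk, mul_zero, add_zero] at s0 s3
    rcases hb with rfl | rfl <;> omega

theorem result :
    ∃ τ : List Cell → Cell,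
      BreakerWinningStrategy Set.univ
        {P : Finset Cell | IsSnakyCopy P ∧
          ((∃ i : ℤ, ∀ c ∈ P, 5 * i ≤ c.2 ∧ c.2 ≤ 5 * i + 4) ∨
            (∃ y : ℤ, ∀ c ∈ P, y ≤ c.2 ∧ c.2 ≤ y + 1))} τ :=
  ⟨pairStrategy partnerAll fresh5,
    pairing_wins Set.univ _ partnerAll fresh5 partnerAll_invol (fun _ _ => Set.mem_univ _)
      (fun l => ⟨Set.mem_univ _, (fresh5_spec l).2⟩)
      (fun P hP _ => by
        obtain ⟨hcopy, ⟨i, hi⟩ | ⟨y, hy⟩⟩ := hP
        · exact coverAll P hcopy i hi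
        · exact coverFlat P hcopy y hy)⟩

end Vale.Agent.Results.P062.TiledPlane
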